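import Vale.Agent.P089.Main

namespace Vale.Agent.Results.P089.Trace

/-- A Hilbert space with an orthonormal basis `b` indexed by the group is the space of square
summable functions on the group, `la` is the left regular representation, the norm closure of the
span of its range is the reduced group algebra and the inner product is the canonical trace. -/
theorem result : ∃ (Γ : Type) (_ : Group Γ) (_ : Countable Γ),
    ∀ {H : Type} [NormedAddCommGroup H] [InnerProductSpace ℂ H] [CompleteSpace H]
      (b : HilbertBasis Γ ℂ H) (la : Γ → H →L[ℂ] H), (∀ g h, la g (b h) = b (g * h)) →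
      ∃ P ∈ closure (Submodule.span ℂ (Set.range la) : Set (H →L[ℂ] H)),
        IsStarProjection P ∧ ∃ t : ℝ, Irrational t ∧ inner ℂ (b 1) (P (b 1)) = (t : ℂ) :=
  Vale.Agent.P089.main

end Vale.Agent.Results.P089.Trace
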